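import Vale.Agent.Lib.P205.TorusB

open scoped ContDiff

/-- Let `w₁, w₂` be a basis of the plane and `lam` a smooth positive function on the plane, periodic
with respect to the lattice spanned by `w₁, w₂`. Then the Riemannian metric `lam² (dx² + dy²)` on the
torus `ℝ² / (ℤ w₁ + ℤ w₂)` has a smooth isometric immersion into Euclidean four-space: a smooth
lattice-periodic map `Φ : ℝ² → ℝ⁴` whose induced metric is exactly `lam² (dx² + dy²)`. -/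
theorem Vale.Agent.Results.P205.A_torus.result (w₁ w₂ : ℝ × ℝ)
    (hdet : w₁.1 * w₂.2 - w₁.2 * w₂.1 ≠ 0) (lam : ℝ × ℝ → ℝ) (hlam : ContDiff ℝ ∞ lam)
    (hpos : ∀ p, 0 < lam p) (hp₁ : ∀ p, lam (p + w₁) = lam p) (hp₂ : ∀ p, lam (p + w₂) = lam p) :
    ∃ Φ : ℝ × ℝ → EuclideanSpace ℝ (Fin 4), ContDiff ℝ ∞ Φ ∧ (∀ p, Φ (p + w₁) = Φ p) ∧
      (∀ p, Φ (p + w₂) = Φ p) ∧
      ∀ p e f, inner ℝ (fderiv ℝ Φ p e) (fderiv ℝ Φ p f) = lam p ^ 2 * (e.1 * f.1 + e.2 * f.2) :=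
  Vale.Agent.Lib.P205.conformal_torus w₁ w₂ hdet lam hlam hpos hp₁ hp₂
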