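import Vale.Agent.Lib.P205.Circle

open scoped ContDiff

/-- Every smooth Riemannian metric `E(x) dx² + 2 F(x) dx dy + G(x) dy²` with 1-periodic coefficients
on the torus `ℝ² / ℤ²` has a smooth isometric immersion into Euclidean four-space. -/
theorem Vale.Agent.Results.P205.B_circle.result (E F G : ℝ → ℝ) (hE : ContDiff ℝ ∞ E)
    (hF : ContDiff ℝ ∞ F) (hG : ContDiff ℝ ∞ G) (hEp : ∀ x, E (x + 1) = E x)
    (hFp : ∀ x, F (x + 1) = F x) (hGp : ∀ x, G (x + 1) = G x) (hEpos : ∀ x, 0 < E x)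
    (hdet : ∀ x, F x ^ 2 < E x * G x) :
    ∃ Φ : ℝ × ℝ → EuclideanSpace ℝ (Fin 4), ContDiff ℝ ∞ Φ ∧
      (∀ x y, Φ (x + 1, y) = Φ (x, y)) ∧ (∀ x y, Φ (x, y + 1) = Φ (x, y)) ∧
      ∀ p v w, inner ℝ (fderiv ℝ Φ p v) (fderiv ℝ Φ p w) =
        E p.1 * (v.1 * w.1) + F p.1 * (v.1 * w.2 + v.2 * w.1) + G p.1 * (v.2 * w.2) :=
  Vale.Agent.Lib.P205.circle_invariant E F G hE hF hG hEp hFp hGp hEpos hdet
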